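import Mathlib

/-!
# P254: a positivity criterion for linear functionals on concave profiles

A linear functional `l ↦ ∫ φ l` on `[0,1]` which is nonnegative on the constant `1` and on all
ramps `y ↦ min (1 - c) (1 - y)`, `c ∈ [0,1]`, is nonnegative on every concave, nonincreasing,
nonnegative function `l` on `[0,1]`.  The proof interpolates `l` at the nodes `k / N` by a
combination of ramps with nonnegative weights and passes to the limit.
-/

open MeasureTheory Set Filter Topology

namespace Vale.Agent.Lib.P254.PWJ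

/-- The node `k / N`. -/
private noncomputable def cpT (N k : ℕ) : ℝ := (k : ℝ) / N

/-- The ramp `y ↦ min (1 - c) (1 - y)`. -/
private noncomputable def cpR (c y : ℝ) : ℝ := min (1 - c) (1 - y)

/-- The step from `1` to `0` across the `k`-th cell. -/
private noncomputable def cpPsi (N k : ℕ) (y : ℝ) : ℝ :=
  N * (cpR (cpT N k) y - cpR (cpT N (k + 1)) y)

/-- The interpolant of `l` at the nodes. -/
private noncomputable def cpL (l : ℝ → ℝ) (N : ℕ) (y : ℝ) : ℝ :=
  l 1 + ∑ k ∈ Finset.range N, (l (cpT N k) - l (cpT N (k + 1))) * cpPsi N k y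

private lemma cpT_zero (N : ℕ) : cpT N 0 = 0 := by simp [cpT]

private lemma cpT_self {N : ℕ} (hN : 0 < N) : cpT N N = 1 := by
  have : (N : ℝ) ≠ 0 := by positivity
  simp [cpT, this]

private lemma cpT_succ {N : ℕ} (hN : 0 < N) (k : ℕ) : cpT N (k + 1) = cpT N k + 1 / N := by
  have : (N : ℝ) ≠ 0 := by positivity
  unfold cpT
  push_cast
  field_simp

private lemma cpT_le_succ {N : ℕ} (hN : 0 < N) (k : ℕ) : cpT N k ≤ cpT N (k + 1) := by
  rw [cpT_succ hN]
  have : (0:ℝ) ≤ 1 / N := by positivity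
  linarith

private lemma cpT_mem {N : ℕ} (hN : 0 < N) {k : ℕ} (hk : k ≤ N) : cpT N k ∈ Icc (0:ℝ) 1 := by
  have hN' : (0:ℝ) < N := by exact_mod_cast hN
  constructor
  · unfold cpT; positivity
  · unfold cpT
    rw [div_le_one hN']
    exact_mod_cast hk

private lemma cp_min_sub (a b u : ℝ) (hba : b ≤ a) :
    0 ≤ min a u - min b u ∧ min a u - min b u ≤ a - b := by
  rcases le_total a u with h1 | h1
  · rw [min_eq_left h1, min_eq_left (hba.trans h1)]
    exact ⟨by linarith, le_rfl⟩
  · rcases le_total b u with h2 | h2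
    · rw [min_eq_right h1, min_eq_left h2]
      exact ⟨by linarith, by linarith⟩
    · rw [min_eq_right h1, min_eq_right h2]
      exact ⟨by linarith, by linarith⟩

private lemma cpPsi_nonneg {N : ℕ} (hN : 0 < N) (k : ℕ) (y : ℝ) : 0 ≤ cpPsi N k y := by
  unfold cpPsi cpR
  have h := (cp_min_sub (1 - cpT N k) (1 - cpT N (k + 1)) (1 - y)
    (by linarith [cpT_le_succ hN k])).1
  have hN' : (0:ℝ) ≤ N := by positivity
  exact mul_nonneg hN' h

private lemma cpPsi_le_one {N : ℕ} (hN : 0 < N) (k : ℕ) (y : ℝ) : cpPsi N k y ≤ 1 := by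
  unfold cpPsi cpR
  have h := (cp_min_sub (1 - cpT N k) (1 - cpT N (k + 1)) (1 - y)
    (by linarith [cpT_le_succ hN k])).2
  have hN' : (0:ℝ) < N := by exact_mod_cast hN
  have h2 : 1 - cpT N k - (1 - cpT N (k + 1)) = 1 / N := by rw [cpT_succ hN]; ring
  rw [h2] at h
  calc (N:ℝ) * (min (1 - cpT N k) (1 - y) - min (1 - cpT N (k + 1)) (1 - y))
      ≤ N * (1 / N) := mul_le_mul_of_nonneg_left h hN'.le
    _ = 1 := by field_simp

private lemma cpPsi_eq_one {N : ℕ} (hN : 0 < N) (k : ℕ) {y : ℝ} (hy : y ≤ cpT N k) :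
    cpPsi N k y = 1 := by
  unfold cpPsi cpR
  have hN' : (N:ℝ) ≠ 0 := by positivity
  have h1 := cpT_le_succ hN k
  rw [min_eq_left (by linarith), min_eq_left (by linarith), cpT_succ hN]
  field_simp
  ring

private lemma cpPsi_eq_zero {N : ℕ} (k : ℕ) {y : ℝ} (hN : 0 < N) (hy : cpT N (k + 1) ≤ y) :
    cpPsi N k y = 0 := by
  unfold cpPsi cpR
  have h1 := cpT_le_succ hN k
  rw [min_eq_right (by linarith), min_eq_right (by linarith)]
  ring

/-- Telescoping of the decrements from the node `j` on. -/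
private lemma cp_node_sum (f : ℕ → ℝ) (j : ℕ) :
    ∀ N : ℕ, j ≤ N →
      ∑ k ∈ Finset.range N, (if j ≤ k then f k - f (k + 1) else 0) = f j - f N := by
  intro N
  induction N with
  | zero =>
    intro hj
    have : j = 0 := Nat.le_zero.1 hj
    subst this
    simp
  | succ N ih =>
    intro hj
    rw [Finset.sum_range_succ]
    rcases Nat.lt_or_ge N j with h | h
    · have hjN : j = N + 1 := by omega
      have h0 : ∑ k ∈ Finset.range N, (if j ≤ k then f k - f (k + 1) else 0) = 0 := by
        apply Finset.sum_eq_zero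
        intro k hk
        have : k < N := Finset.mem_range.1 hk
        rw [if_neg (by omega)]
      rw [h0, if_neg (by omega), hjN]
      ring
    · rw [ih h, if_pos h]
      ring

/-- An Abel summation bound. -/
private lemma cp_abel (d P : ℕ → ℝ) (N : ℕ) (hd0 : 0 ≤ d 0)
    (hdm : ∀ k, k + 1 < N → d k ≤ d (k + 1)) (hP : ∀ k, 0 ≤ P k) :
    ∀ m, m < N → -(d m * P (m + 1)) ≤ ∑ k ∈ Finset.range (m + 1), d k * (P k - P (k + 1)) := by
  intro m
  induction m with
  | zero =>
    intro _
    rw [Finset.sum_range_one]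
    nlinarith [mul_nonneg hd0 (hP 0)]
  | succ m ih =>
    intro hm
    rw [Finset.sum_range_succ]
    have h1 := ih (by omega)
    have h2 := hdm m hm
    nlinarith [mul_nonneg (sub_nonneg.2 h2) (hP (m + 1))]

section interp

variable {l : ℝ → ℝ}

private lemma cp_dec_nonneg (ha : AntitoneOn l (Icc 0 1)) {N : ℕ} (hN : 0 < N) {k : ℕ}
    (hk : k < N) : 0 ≤ l (cpT N k) - l (cpT N (k + 1)) :=
  sub_nonneg.2 (ha (cpT_mem hN hk.le) (cpT_mem hN hk) (cpT_le_succ hN k))

private lemma cp_dec_mono (hc : ConcaveOn ℝ (Icc 0 1) l) {N : ℕ} (hN : 0 < N) {k : ℕ}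
    (hk : k + 1 < N) :
    l (cpT N k) - l (cpT N (k + 1)) ≤ l (cpT N (k + 1)) - l (cpT N (k + 1 + 1)) := by
  have h := hc.2 (cpT_mem hN (show k ≤ N by omega)) (cpT_mem hN (show k + 1 + 1 ≤ N by omega))
    (show (0:ℝ) ≤ 1 / 2 by norm_num) (show (0:ℝ) ≤ 1 / 2 by norm_num) (by norm_num)
  have e : (1 / 2 : ℝ) • cpT N k + (1 / 2 : ℝ) • cpT N (k + 1 + 1) = cpT N (k + 1) := by
    rw [cpT_succ hN (k + 1), cpT_succ hN k]
    simp only [smul_eq_mul]
    ring
  rw [e] at h
  simp only [smul_eq_mul] at h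
  linarith

/-- Upper bound of the interpolant to the right of a node. -/
private lemma cpL_le (ha : AntitoneOn l (Icc 0 1)) {N : ℕ} (hN : 0 < N) {j : ℕ} (hj : j ≤ N)
    {y : ℝ} (hy : cpT N j ≤ y) : cpL l N y ≤ l (cpT N j) := by
  unfold cpL
  have hsum : ∑ k ∈ Finset.range N, (l (cpT N k) - l (cpT N (k + 1))) * cpPsi N k y
      ≤ ∑ k ∈ Finset.range N,
        (if j ≤ k then l (cpT N k) - l (cpT N (k + 1)) else 0) := by
    apply Finset.sum_le_sum
    intro k hk
    have hkN : k < N := Finset.mem_range.1 hk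
    by_cases hjk : j ≤ k
    · rw [if_pos hjk]
      have h1 := cp_dec_nonneg ha hN hkN
      have h2 := cpPsi_le_one hN k y
      nlinarith
    · rw [if_neg hjk]
      have hle : cpT N (k + 1) ≤ cpT N j := by
        have hN' : (0:ℝ) < N := by exact_mod_cast hN
        unfold cpT
        apply div_le_div_of_nonneg_right _ hN'.le
        exact_mod_cast (show k + 1 ≤ j by omega)
      rw [cpPsi_eq_zero k hN (hle.trans hy)]
      simp
  rw [cp_node_sum (fun k => l (cpT N k)) j N hj, cpT_self hN] at hsum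
  linarith

/-- Lower bound of the interpolant to the left of a node. -/
private lemma cpL_ge (ha : AntitoneOn l (Icc 0 1)) {N : ℕ} (hN : 0 < N) {j : ℕ} (hj : j ≤ N)
    {y : ℝ} (hy : y ≤ cpT N j) : l (cpT N j) ≤ cpL l N y := by
  unfold cpL
  have hsum : ∑ k ∈ Finset.range N,
        (if j ≤ k then l (cpT N k) - l (cpT N (k + 1)) else 0)
      ≤ ∑ k ∈ Finset.range N, (l (cpT N k) - l (cpT N (k + 1))) * cpPsi N k y := by
    apply Finset.sum_le_sum
    intro k hk
    have hkN : k < N := Finset.mem_range.1 hk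
    by_cases hjk : j ≤ k
    · rw [if_pos hjk]
      have hle : cpT N j ≤ cpT N k := by
        have hN' : (0:ℝ) < N := by exact_mod_cast hN
        unfold cpT
        apply div_le_div_of_nonneg_right _ hN'.le
        exact_mod_cast hjk
      rw [cpPsi_eq_one hN k (hy.trans hle)]
      simp
    · rw [if_neg hjk]
      exact mul_nonneg (cp_dec_nonneg ha hN hkN) (cpPsi_nonneg hN k y)
  rw [cp_node_sum (fun k => l (cpT N k)) j N hj, cpT_self hN] at hsum
  linarith

private lemma cpL_continuous (l : ℝ → ℝ) (N : ℕ) : Continuous (cpL l N) := by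
  unfold cpL cpPsi cpR
  fun_prop

end interp

/-- The functional is nonnegative on the interpolant. -/
private lemma cp_interp_nonneg {φ : ℝ → ℝ} (hφ : IntervalIntegrable φ volume 0 1)
    (h1 : 0 ≤ ∫ y in (0:ℝ)..1, φ y)
    (hr : ∀ c ∈ Icc (0:ℝ) 1, 0 ≤ ∫ y in (0:ℝ)..1, φ y * min (1 - c) (1 - y))
    {l : ℝ → ℝ} (hc : ConcaveOn ℝ (Icc 0 1) l) (ha : AntitoneOn l (Icc 0 1))
    (h0 : ∀ y ∈ Icc (0:ℝ) 1, 0 ≤ l y) {N : ℕ} (hN : 0 < N) :
    0 ≤ ∫ y in (0:ℝ)..1, φ y * cpL l N y := by
  have hint : ∀ c : ℝ, IntervalIntegrable (fun y => φ y * cpR c y) volume 0 1 := by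
    intro c
    apply hφ.mul_continuousOn
    unfold cpR
    fun_prop
  set P : ℕ → ℝ := fun k => ∫ y in (0:ℝ)..1, φ y * cpR (cpT N k) y with hP
  set d : ℕ → ℝ := fun k => l (cpT N k) - l (cpT N (k + 1)) with hd
  have hPN : P N = 0 := by
    simp only [hP]
    rw [cpT_self hN]
    have : ∀ y ∈ uIcc (0:ℝ) 1, φ y * cpR 1 y = 0 := by
      intro y hy
      rw [uIcc_of_le zero_le_one] at hy
      unfold cpR
      rw [sub_self, min_eq_left (by linarith [hy.2])]
      ring
    rw [intervalIntegral.integral_congr this]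
    simp
  have hPnn : ∀ k, k ≤ N → 0 ≤ P k := fun k hk => hr _ (cpT_mem hN hk)
  -- the integral as a finite sum
  have hI : ∫ y in (0:ℝ)..1, φ y * cpL l N y
      = l 1 * (∫ y in (0:ℝ)..1, φ y) + N * ∑ k ∈ Finset.range N, d k * (P k - P (k + 1)) := by
    have hpt : ∀ y, φ y * cpL l N y = l 1 * φ y + ∑ k ∈ Finset.range N,
        d k * ((N:ℝ) * (φ y * cpR (cpT N k) y - φ y * cpR (cpT N (k + 1)) y)) := by
      intro y
      unfold cpL cpPsi
      rw [mul_add, Finset.mul_sum]
      congr 1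
      · ring
      · apply Finset.sum_congr rfl
        intro k _
        simp only [hd]
        ring
    simp_rw [hpt]
    have hterm : ∀ k ∈ Finset.range N, IntervalIntegrable (fun y =>
        d k * ((N:ℝ) * (φ y * cpR (cpT N k) y - φ y * cpR (cpT N (k + 1)) y))) volume 0 1 := by
      intro k _
      exact (((hint _).sub (hint _)).const_mul _).const_mul _
    have hsumint : IntervalIntegrable (fun y => ∑ k ∈ Finset.range N,
        d k * ((N:ℝ) * (φ y * cpR (cpT N k) y - φ y * cpR (cpT N (k + 1)) y))) volume 0 1 := by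
      have heq : (fun y => ∑ k ∈ Finset.range N,
          d k * ((N:ℝ) * (φ y * cpR (cpT N k) y - φ y * cpR (cpT N (k + 1)) y)))
          = ∑ k ∈ Finset.range N, (fun y =>
            d k * ((N:ℝ) * (φ y * cpR (cpT N k) y - φ y * cpR (cpT N (k + 1)) y))) := by
        ext y
        rw [Finset.sum_apply]
      rw [heq]
      exact IntervalIntegrable.sum (Finset.range N) hterm
    rw [intervalIntegral.integral_add (hφ.const_mul _) hsumint,
      intervalIntegral.integral_const_mul,
      intervalIntegral.integral_finsetSum hterm, Finset.mul_sum]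
    congr 1
    apply Finset.sum_congr rfl
    intro k _
    rw [intervalIntegral.integral_const_mul, intervalIntegral.integral_const_mul,
      intervalIntegral.integral_sub (hint _) (hint _)]
    ring
  rw [hI]
  have hl1 : 0 ≤ l 1 := h0 1 (by simp)
  have hsum : 0 ≤ ∑ k ∈ Finset.range N, d k * (P k - P (k + 1)) := by
    -- modify `P` beyond `N` so that it is nonnegative everywhere
    set P' : ℕ → ℝ := fun k => if k ≤ N then P k else 0 with hP'
    have hP'nn : ∀ k, 0 ≤ P' k := by
      intro k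
      simp only [hP']
      split_ifs with h
      · exact hPnn k h
      · exact le_rfl
    have heq : ∑ k ∈ Finset.range N, d k * (P k - P (k + 1))
        = ∑ k ∈ Finset.range N, d k * (P' k - P' (k + 1)) := by
      apply Finset.sum_congr rfl
      intro k hk
      have hkN : k < N := Finset.mem_range.1 hk
      simp only [hP']
      rw [if_pos hkN.le, if_pos (by omega)]
    rw [heq]
    obtain ⟨M, rfl⟩ : ∃ M, N = M + 1 := ⟨N - 1, by omega⟩
    have hab := cp_abel d P' (M + 1) (cp_dec_nonneg ha hN (by omega))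
      (fun k hk => cp_dec_mono hc hN hk) hP'nn M (by omega)
    have hz : P' (M + 1) = 0 := by
      simp only [hP']
      rw [if_pos le_rfl]
      exact hPN
    rw [hz, mul_zero, neg_zero] at hab
    exact hab
  have hN' : (0:ℝ) ≤ N := by positivity
  have := mul_nonneg hl1 h1
  have := mul_nonneg hN' hsum
  linarith

/-- Pointwise convergence of the interpolants inside the interval. -/
private lemma cp_tendsto {l : ℝ → ℝ} (hc : ConcaveOn ℝ (Icc 0 1) l)
    (ha : AntitoneOn l (Icc 0 1)) {y : ℝ} (hy : y ∈ Ioo (0:ℝ) 1) :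
    Tendsto (fun n : ℕ => cpL l (n + 1) y) atTop (𝓝 (l y)) := by
  have hcont : ContinuousAt l y := by
    apply (hc.continuousOn_interior).continuousAt
    apply isOpen_interior.mem_nhds
    rw [interior_Icc]
    exact hy
  set j : ℕ → ℕ := fun n => ⌊((n:ℝ) + 1) * y⌋₊ with hj
  have hpos : ∀ n : ℕ, (0:ℝ) < (n:ℝ) + 1 := fun n => by positivity
  have hj1 : ∀ n : ℕ, (j n : ℝ) ≤ ((n:ℝ) + 1) * y := fun n =>
    Nat.floor_le (mul_nonneg (hpos n).le hy.1.le)
  have hj2 : ∀ n : ℕ, ((n:ℝ) + 1) * y < (j n : ℝ) + 1 := fun n => Nat.lt_floor_add_one _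
  have hjlt : ∀ n : ℕ, j n < n + 1 := by
    intro n
    have : (j n : ℝ) < (n:ℝ) + 1 := by nlinarith [hj1 n, hy.2, hpos n]
    exact_mod_cast this
  have hlo : ∀ n : ℕ, cpT (n + 1) (j n) ≤ y := by
    intro n
    unfold cpT
    push_cast
    rw [div_le_iff₀ (hpos n)]
    linarith [hj1 n]
  have hhi : ∀ n : ℕ, y ≤ cpT (n + 1) (j n + 1) := by
    intro n
    unfold cpT
    push_cast
    rw [le_div_iff₀ (hpos n)]
    linarith [hj2 n]
  have hgap : ∀ n : ℕ, cpT (n + 1) (j n + 1) = cpT (n + 1) (j n) + 1 / ((n:ℝ) + 1) := by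
    intro n
    rw [cpT_succ (Nat.succ_pos n)]
    push_cast
    ring
  have hz : Tendsto (fun n : ℕ => 1 / ((n:ℝ) + 1)) atTop (𝓝 0) :=
    tendsto_one_div_add_atTop_nhds_zero_nat
  have ht1 : Tendsto (fun n : ℕ => cpT (n + 1) (j n)) atTop (𝓝 y) := by
    have hA : Tendsto (fun n : ℕ => y - 1 / ((n:ℝ) + 1)) atTop (𝓝 y) := by
      simpa using tendsto_const_nhds.sub hz
    apply tendsto_of_tendsto_of_tendsto_of_le_of_le hA tendsto_const_nhds
    · intro n
      have := hhi n
      rw [hgap n] at this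
      simp only
      linarith
    · intro n
      exact hlo n
  have ht2 : Tendsto (fun n : ℕ => cpT (n + 1) (j n + 1)) atTop (𝓝 y) := by
    have hA : Tendsto (fun n : ℕ => y + 1 / ((n:ℝ) + 1)) atTop (𝓝 y) := by
      simpa using tendsto_const_nhds.add hz
    apply tendsto_of_tendsto_of_tendsto_of_le_of_le tendsto_const_nhds hA
    · intro n
      exact hhi n
    · intro n
      have := hlo n
      simp only
      rw [hgap n]
      linarith
  have hl1 : Tendsto (fun n : ℕ => l (cpT (n + 1) (j n))) atTop (𝓝 (l y)) :=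
    hcont.tendsto.comp ht1
  have hl2 : Tendsto (fun n : ℕ => l (cpT (n + 1) (j n + 1))) atTop (𝓝 (l y)) :=
    hcont.tendsto.comp ht2
  apply tendsto_of_tendsto_of_tendsto_of_le_of_le hl2 hl1
  · intro n
    exact cpL_ge ha (Nat.succ_pos n) (hjlt n) (hhi n)
  · intro n
    exact cpL_le ha (Nat.succ_pos n) (hjlt n).le (hlo n)

/-- **Positivity criterion.**  A linear functional `l ↦ ∫ φ l` on `[0,1]` that is nonnegative on
the constant `1` and on all ramps `y ↦ min (1 - c) (1 - y)`, `c ∈ [0,1]`, is nonnegative on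
every concave, nonincreasing, nonnegative `l`. -/
theorem concave_pos_functional (φ : ℝ → ℝ) (hφ : IntervalIntegrable φ volume 0 1)
    (h1 : 0 ≤ ∫ y in (0:ℝ)..1, φ y)
    (hr : ∀ c ∈ Icc (0:ℝ) 1, 0 ≤ ∫ y in (0:ℝ)..1, φ y * min (1 - c) (1 - y))
    (l : ℝ → ℝ) (hc : ConcaveOn ℝ (Icc 0 1) l) (ha : AntitoneOn l (Icc 0 1))
    (h0 : ∀ y ∈ Icc (0:ℝ) 1, 0 ≤ l y) :
    0 ≤ ∫ y in (0:ℝ)..1, φ y * l y := by
  have h01 : (0:ℝ) ≤ 1 := zero_le_one
  have hl0 : 0 ≤ l 0 := h0 0 (by simp)
  have hl1 : 0 ≤ l 1 := h0 1 (by simp)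
  -- bounds of the interpolants on the interval
  have hbd : ∀ n : ℕ, ∀ y ∈ Icc (0:ℝ) 1, 0 ≤ cpL l (n + 1) y ∧ cpL l (n + 1) y ≤ l 0 := by
    intro n y hy
    have hN : 0 < n + 1 := Nat.succ_pos n
    constructor
    · have := cpL_ge ha hN (j := n + 1) le_rfl (y := y) (by rw [cpT_self hN]; exact hy.2)
      rw [cpT_self hN] at this
      linarith
    · have := cpL_le ha hN (j := 0) (Nat.zero_le _) (y := y) (by rw [cpT_zero]; exact hy.1)
      rw [cpT_zero] at this
      exact this
  have hlim : Tendsto (fun n : ℕ => ∫ y in (0:ℝ)..1, φ y * cpL l (n + 1) y) atTop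
      (𝓝 (∫ y in (0:ℝ)..1, φ y * l y)) := by
    apply intervalIntegral.tendsto_integral_filter_of_dominated_convergence
      (fun y => |φ y| * l 0)
    · apply Eventually.of_forall
      intro n
      have hm : AEStronglyMeasurable φ (volume.restrict (uIoc (0:ℝ) 1)) := by
        rw [uIoc_of_le h01]
        exact hφ.1.aestronglyMeasurable
      exact hm.mul (cpL_continuous l (n + 1)).aestronglyMeasurable
    · apply Eventually.of_forall
      intro n
      apply Eventually.of_forall
      intro y hy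
      rw [uIoc_of_le h01] at hy
      have hb := hbd n y ⟨hy.1.le, hy.2⟩
      rw [norm_mul, Real.norm_eq_abs, Real.norm_eq_abs, abs_of_nonneg hb.1]
      exact mul_le_mul_of_nonneg_left hb.2 (abs_nonneg _)
    · exact hφ.abs.mul_const _
    · apply Eventually.of_forall
      intro y hy
      rw [uIoc_of_le h01] at hy
      rcases hy.2.lt_or_eq with hlt | heq
      · exact (cp_tendsto hc ha ⟨hy.1, hlt⟩).const_mul _
      · -- at the right end point the interpolant is exact
        have hex : ∀ n : ℕ, cpL l (n + 1) y = l y := by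
          intro n
          have hN : 0 < n + 1 := Nat.succ_pos n
          have e1 := cpL_ge ha hN (j := n + 1) le_rfl (y := y)
            (by rw [cpT_self hN]; exact hy.2)
          have e2 := cpL_le ha hN (j := n + 1) le_rfl (y := y)
            (by rw [cpT_self hN]; exact heq.ge)
          rw [cpT_self hN] at e1 e2
          rw [heq]
          rw [heq] at e1 e2
          linarith
        simp only [hex]
        exact tendsto_const_nhds
  exact ge_of_tendsto' hlim (fun n => cp_interp_nonneg hφ h1 hr hc ha h0 (Nat.succ_pos n))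

end Vale.Agent.Lib.P254.PWJ
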