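import Mathlib

/-!
# P254, route R-C, Lemma 3: antitone interpolants of a concave antitone function converge
-/

namespace Vale.Agent.Lib.P254.PWJ

open Set Filter Topology

/-- The node to the left of `y` on the grid of mesh `1/(n+1)`. -/
private lemma node_facts (n : ℕ) {y : ℝ} (hy0 : 0 ≤ y) (hy1 : y < 1) :
    ⌊((n : ℝ) + 1) * y⌋₊ ≤ n ∧
      ((⌊((n : ℝ) + 1) * y⌋₊ : ℕ) : ℝ) / ((n : ℝ) + 1) ≤ y ∧
      y < (((⌊((n : ℝ) + 1) * y⌋₊ + 1 : ℕ) : ℕ) : ℝ) / ((n : ℝ) + 1) := by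
  have hN : (0 : ℝ) < (n : ℝ) + 1 := by positivity
  have hNy : 0 ≤ ((n : ℝ) + 1) * y := mul_nonneg hN.le hy0
  refine ⟨?_, ?_, ?_⟩
  · have hlt : ⌊((n : ℝ) + 1) * y⌋₊ < n + 1 := by
      rw [Nat.floor_lt hNy]
      push_cast
      nlinarith
    omega
  · rw [div_le_iff₀ hN]
    have := Nat.floor_le hNy
    linarith
  · rw [lt_div_iff₀ hN]
    have := Nat.lt_floor_add_one (((n : ℝ) + 1) * y)
    push_cast
    linarith

/-- The sandwich: `L n y` and `l y` both lie between the values of `l` at the two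
neighbouring nodes. -/
private lemma sandwich (l : ℝ → ℝ)
    (L : ℕ → ℝ → ℝ) (hLanti : ∀ n, Antitone (L n))
    (hnode : ∀ n j : ℕ, j ≤ n + 1 →
      L n ((j : ℝ) / ((n : ℝ) + 1)) = l ((j : ℝ) / ((n : ℝ) + 1)))
    (n : ℕ) {y : ℝ} (hy0 : 0 ≤ y) (hy1 : y < 1) :
    ((⌊((n : ℝ) + 1) * y⌋₊ : ℕ) : ℝ) / ((n : ℝ) + 1) ∈ Icc (0:ℝ) 1 ∧
    (((⌊((n : ℝ) + 1) * y⌋₊ + 1 : ℕ) : ℕ) : ℝ) / ((n : ℝ) + 1) ∈ Icc (0:ℝ) 1 ∧
    l ((((⌊((n : ℝ) + 1) * y⌋₊ + 1 : ℕ) : ℕ) : ℝ) / ((n : ℝ) + 1)) ≤ L n y ∧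
    L n y ≤ l (((⌊((n : ℝ) + 1) * y⌋₊ : ℕ) : ℝ) / ((n : ℝ) + 1)) := by
  obtain ⟨hj, hle, hlt⟩ := node_facts n hy0 hy1
  have hN : (0 : ℝ) < (n : ℝ) + 1 := by positivity
  set j : ℕ := ⌊((n : ℝ) + 1) * y⌋₊ with hjdef
  have hu : (j : ℝ) / ((n : ℝ) + 1) ∈ Icc (0:ℝ) 1 :=
    ⟨by positivity, le_trans hle hy1.le⟩
  have hv : ((j + 1 : ℕ) : ℝ) / ((n : ℝ) + 1) ∈ Icc (0:ℝ) 1 := by
    refine ⟨by positivity, ?_⟩
    rw [div_le_one hN]
    have : ((j + 1 : ℕ) : ℝ) ≤ ((n + 1 : ℕ) : ℝ) := by exact_mod_cast Nat.succ_le_succ hj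
    push_cast at this ⊢
    linarith
  refine ⟨hu, hv, ?_, ?_⟩
  · rw [← hnode n (j + 1) (Nat.succ_le_succ hj)]
    exact hLanti n hlt.le
  · rw [← hnode n j (le_trans hj (Nat.le_succ n))]
    exact hLanti n hle

theorem approx_of_nodes (l : ℝ → ℝ) (hc : ConcaveOn ℝ (Icc (0:ℝ) 1) l)
    (ha : AntitoneOn l (Icc (0:ℝ) 1)) (h0 : ∀ y ∈ Icc (0:ℝ) 1, 0 ≤ l y)
    (L : ℕ → ℝ → ℝ) (hLanti : ∀ n, Antitone (L n))
    (hnode : ∀ n j : ℕ, j ≤ n + 1 →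
      L n ((j : ℝ) / ((n : ℝ) + 1)) = l ((j : ℝ) / ((n : ℝ) + 1))) :
    (∀ n, ∀ y ∈ Icc (0:ℝ) 1, |L n y| ≤ l 0) ∧
      (∀ y ∈ Ioo (0:ℝ) 1, Tendsto (fun n => L n y) atTop (𝓝 (l y))) := by
  have h00 : (0:ℝ) ∈ Icc (0:ℝ) 1 := ⟨le_rfl, zero_le_one⟩
  have h11 : (1:ℝ) ∈ Icc (0:ℝ) 1 := ⟨zero_le_one, le_rfl⟩
  constructor
  · intro n y hy
    rcases lt_or_eq_of_le hy.2 with hlt | heq
    · obtain ⟨hu, hv, hlo, hhi⟩ := sandwich l L hLanti hnode n hy.1 hlt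
      have h1 : 0 ≤ L n y := le_trans (h0 _ hv) hlo
      have h2 : L n y ≤ l 0 := le_trans hhi (ha h00 hu hu.1)
      rw [abs_of_nonneg h1]
      exact h2
    · have hN : (0 : ℝ) < (n : ℝ) + 1 := by positivity
      have hone : (((n + 1 : ℕ) : ℕ) : ℝ) / ((n : ℝ) + 1) = 1 := by
        push_cast
        exact div_self hN.ne'
      have hL1 : L n 1 = l 1 := by
        have := hnode n (n + 1) le_rfl
        rw [hone] at this
        exact this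
      rw [heq, hL1, abs_of_nonneg (h0 1 h11)]
      exact ha h00 h11 zero_le_one
  · intro y hy
    have hcont : ContinuousAt l y := by
      have hco := hc.continuousOn_interior
      rw [interior_Icc] at hco
      exact hco.continuousAt (isOpen_Ioo.mem_nhds hy)
    set u : ℕ → ℝ := fun n => ((⌊((n : ℝ) + 1) * y⌋₊ : ℕ) : ℝ) / ((n : ℝ) + 1) with hudef
    set v : ℕ → ℝ := fun n =>
      (((⌊((n : ℝ) + 1) * y⌋₊ + 1 : ℕ) : ℕ) : ℝ) / ((n : ℝ) + 1) with hvdef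
    have hinv : Tendsto (fun n : ℕ => 1 / ((n : ℝ) + 1)) atTop (𝓝 0) :=
      tendsto_one_div_add_atTop_nhds_zero_nat
    have huv : ∀ n, v n = u n + 1 / ((n : ℝ) + 1) := by
      intro n
      simp only [hudef, hvdef]
      push_cast
      ring
    have hule : ∀ n, u n ≤ y := fun n => (node_facts n hy.1.le hy.2).2.1
    have hvlt : ∀ n, y < v n := fun n => (node_facts n hy.1.le hy.2).2.2
    have hu_tend : Tendsto u atTop (𝓝 y) := by
      have hlow : Tendsto (fun n : ℕ => y - 1 / ((n : ℝ) + 1)) atTop (𝓝 y) := by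
        have := (tendsto_const_nhds (x := y)).sub hinv
        simpa using this
      refine tendsto_of_tendsto_of_tendsto_of_le_of_le hlow tendsto_const_nhds ?_ hule
      intro n
      have := hvlt n
      rw [huv n] at this
      show y - 1 / ((n : ℝ) + 1) ≤ u n
      linarith
    have hv_tend : Tendsto v atTop (𝓝 y) := by
      have : Tendsto (fun n => u n + 1 / ((n : ℝ) + 1)) atTop (𝓝 (y + 0)) := hu_tend.add hinv
      rw [add_zero] at this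
      exact this.congr (fun n => (huv n).symm)
    have hlu : Tendsto (fun n => l (u n)) atTop (𝓝 (l y)) := hcont.tendsto.comp hu_tend
    have hlv : Tendsto (fun n => l (v n)) atTop (𝓝 (l y)) := hcont.tendsto.comp hv_tend
    refine tendsto_of_tendsto_of_tendsto_of_le_of_le hlv hlu ?_ ?_
    · intro n
      exact (sandwich l L hLanti hnode n hy.1.le hy.2).2.2.1
    · intro n
      exact (sandwich l L hLanti hnode n hy.1.le hy.2).2.2.2

end Vale.Agent.Lib.P254.PWJ
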