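import Mathlib

/-!
# P254, route R-C, Lemma 3: definitions

A quadratic inequality for concave nonincreasing profiles on the unit interval:
`J0 + 12 C I1 ≤ 2 I0^2 + 3 C I0`.  This file only holds the definitions shared by the
pieces of the proof.
-/

namespace Vale.Agent.Lib.P254.PWJ

open MeasureTheory Set

/-- generator: `gen a y = min a (1 - y)` -/
noncomputable def gen (a y : ℝ) : ℝ := min a (1 - y)

/-- the quadratic functional `Q(l) = 2 I0^2 + 3 C I0 - 12 C I1 - J0` on the unit interval -/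
noncomputable def QF (l : ℝ → ℝ) : ℝ :=
  2 * (∫ y in (0:ℝ)..1, l y) ^ 2
    + 3 * (∫ y in (0:ℝ)..1, (1 - y) ^ 2 * l y) * (∫ y in (0:ℝ)..1, l y)
    - 12 * (∫ y in (0:ℝ)..1, (1 - y) ^ 2 * l y) * (∫ y in (0:ℝ)..1, y * l y)
    - ∫ y in (0:ℝ)..1, l y ^ 2

/-- closed form of the integral of `gen a` -/
noncomputable def i0 (a : ℝ) : ℝ := a - a ^ 2 / 2

/-- closed form of the first moment of `gen a` -/
noncomputable def i1 (a : ℝ) : ℝ := a * (3 - 3 * a + a ^ 2) / 6

/-- closed form of the integral of `(1 - y)^2 * gen a y` -/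
noncomputable def cc (a : ℝ) : ℝ := a / 3 - a ^ 4 / 12

/-- closed form of the integral of `gen a * gen b` for `b ≤ a` -/
noncomputable def gg (a b : ℝ) : ℝ := a * b - a ^ 2 * b / 2 - b ^ 3 / 6

/-- the bilinear form on two generators (closed form, `b ≤ a`) -/
noncomputable def bgg (a b : ℝ) : ℝ :=
  2 * i0 a * i0 b + 3 / 2 * (cc a * i0 b + cc b * i0 a) - 6 * (cc a * i1 b + cc b * i1 a) - gg a b

/-- the bilinear form on the constant one and a generator (closed form) -/
noncomputable def b1g (a : ℝ) : ℝ := 3 / 2 * i0 a - 3 / 2 * cc a - 2 * i1 a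

/-- finite combination of generators plus a constant -/
noncomputable def comb {k : ℕ} (c : ℝ) (w a : Fin k → ℝ) (y : ℝ) : ℝ :=
  c + ∑ i, w i * gen (a i) y

/-- the algebraic value of `QF` on `comb c w a` -/
noncomputable def qval {k : ℕ} (c : ℝ) (w a : Fin k → ℝ) : ℝ :=
  2 * (c + ∑ i, w i * i0 (a i)) ^ 2
    + 3 * (c / 3 + ∑ i, w i * cc (a i)) * (c + ∑ i, w i * i0 (a i))
    - 12 * (c / 3 + ∑ i, w i * cc (a i)) * (c / 2 + ∑ i, w i * i1 (a i))
    - (c ^ 2 + 2 * c * ∑ i, w i * i0 (a i)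
        + ∑ i, ∑ j, w i * w j * gg (max (a i) (a j)) (min (a i) (a j)))

/-- slope of the chord of `l` over the `k`-th cell of the mesh `1/(n+1)` (sign reversed) -/
noncomputable def sl (l : ℝ → ℝ) (n k : ℕ) : ℝ :=
  ((n : ℝ) + 1) * (l ((k : ℝ) / ((n : ℝ) + 1)) - l (((k : ℝ) + 1) / ((n : ℝ) + 1)))

/-- second differences: the weights of the interpolant -/
noncomputable def wt (l : ℝ → ℝ) (n : ℕ) (k : Fin (n + 1)) : ℝ :=
  if (k : ℕ) = 0 then sl l n 0 else sl l n k - sl l n ((k : ℕ) - 1)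

/-- the generator parameters of the interpolant -/
noncomputable def nd (n : ℕ) (k : Fin (n + 1)) : ℝ := 1 - (k : ℝ) / ((n : ℝ) + 1)

/-- the interpolant of `l` at the nodes `j/(n+1)` -/
noncomputable def interp (l : ℝ → ℝ) (n : ℕ) : ℝ → ℝ := comb (l 1) (wt l n) (nd n)

end Vale.Agent.Lib.P254.PWJ
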