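import Vale.Agent.Lib.P254.PWJ.Quad.Defs

/-!
# P254, route R-C, Lemma 3: the algebraic value on a finite combination is nonnegative
-/

namespace Vale.Agent.Lib.P254.PWJ

/-- The bilinear form at the ordered pair is the symmetric part at the unordered pair minus the
`gg` term. -/
theorem fa_bgg_max_min (x y : ℝ) :
    bgg (max x y) (min x y) =
      2 * i0 x * i0 y + 3 / 2 * (cc x * i0 y + cc y * i0 x) - 6 * (cc x * i1 y + cc y * i1 x)
        - gg (max x y) (min x y) := by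
  rcases le_total x y with h | h
  · rw [max_eq_right h, min_eq_left h]
    unfold bgg
    ring
  · rw [max_eq_left h, min_eq_right h]
    unfold bgg
    ring

/-- The double sum of the bilinear form in terms of the four simple sums. -/
theorem fa_double_sum {k : ℕ} (w a : Fin k → ℝ) :
    ∑ i, ∑ j, w i * w j * bgg (max (a i) (a j)) (min (a i) (a j)) =
      2 * (∑ i, w i * i0 (a i)) ^ 2
        + 3 * (∑ i, w i * cc (a i)) * (∑ i, w i * i0 (a i))
        - 12 * (∑ i, w i * cc (a i)) * (∑ i, w i * i1 (a i))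
        - ∑ i, ∑ j, w i * w j * gg (max (a i) (a j)) (min (a i) (a j)) := by
  have h00 : (∑ i, w i * i0 (a i)) * (∑ j, w j * i0 (a j))
      = ∑ i, ∑ j, (w i * i0 (a i)) * (w j * i0 (a j)) := Finset.sum_mul_sum _ _ _ _
  have hc0 : (∑ i, w i * cc (a i)) * (∑ j, w j * i0 (a j))
      = ∑ i, ∑ j, (w i * cc (a i)) * (w j * i0 (a j)) := Finset.sum_mul_sum _ _ _ _
  have h0c : (∑ i, w i * i0 (a i)) * (∑ j, w j * cc (a j))
      = ∑ i, ∑ j, (w i * i0 (a i)) * (w j * cc (a j)) := Finset.sum_mul_sum _ _ _ _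
  have hc1 : (∑ i, w i * cc (a i)) * (∑ j, w j * i1 (a j))
      = ∑ i, ∑ j, (w i * cc (a i)) * (w j * i1 (a j)) := Finset.sum_mul_sum _ _ _ _
  have h1c : (∑ i, w i * i1 (a i)) * (∑ j, w j * cc (a j))
      = ∑ i, ∑ j, (w i * i1 (a i)) * (w j * cc (a j)) := Finset.sum_mul_sum _ _ _ _
  have key : ∑ i, ∑ j, w i * w j * bgg (max (a i) (a j)) (min (a i) (a j)) =
      2 * (∑ i, ∑ j, (w i * i0 (a i)) * (w j * i0 (a j)))
        + 3 / 2 * ((∑ i, ∑ j, (w i * cc (a i)) * (w j * i0 (a j)))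
          + ∑ i, ∑ j, (w i * i0 (a i)) * (w j * cc (a j)))
        - 6 * ((∑ i, ∑ j, (w i * cc (a i)) * (w j * i1 (a j)))
          + ∑ i, ∑ j, (w i * i1 (a i)) * (w j * cc (a j)))
        - ∑ i, ∑ j, w i * w j * gg (max (a i) (a j)) (min (a i) (a j)) := by
    simp only [Finset.mul_sum, ← Finset.sum_add_distrib, ← Finset.sum_sub_distrib]
    refine Finset.sum_congr rfl (fun i _ => Finset.sum_congr rfl (fun j _ => ?_))
    rw [fa_bgg_max_min]
    ring
  rw [key, ← h00, ← hc0, ← h0c, ← hc1, ← h1c]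
  ring

/-- The algebraic value as a combination of the two bilinear forms. -/
theorem qval_eq {k : ℕ} (c : ℝ) (w a : Fin k → ℝ) :
    qval c w a = 2 * c * (∑ i, w i * b1g (a i))
      + ∑ i, ∑ j, w i * w j * bgg (max (a i) (a j)) (min (a i) (a j)) := by
  have hb : ∑ i, w i * b1g (a i) = 3 / 2 * (∑ i, w i * i0 (a i)) - 3 / 2 * (∑ i, w i * cc (a i))
      - 2 * (∑ i, w i * i1 (a i)) := by
    rw [Finset.mul_sum, Finset.mul_sum, Finset.mul_sum, ← Finset.sum_sub_distrib,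
      ← Finset.sum_sub_distrib]
    refine Finset.sum_congr rfl (fun i _ => ?_)
    unfold b1g
    ring
  rw [fa_double_sum, hb]
  unfold qval
  ring

theorem qval_nonneg {k : ℕ} (c : ℝ) (hc : 0 ≤ c) (w a : Fin k → ℝ) (hw : ∀ i, 0 ≤ w i)
    (ha : ∀ i, 0 ≤ a i ∧ a i ≤ 1)
    (h1 : ∀ a b : ℝ, 0 ≤ b → b ≤ a → a ≤ 1 → 0 ≤ bgg a b)
    (h2 : ∀ a : ℝ, 0 ≤ a → a ≤ 1 → 0 ≤ b1g a) :
    0 ≤ qval c w a := by
  rw [qval_eq]
  have hA : 0 ≤ ∑ i, w i * b1g (a i) :=
    Finset.sum_nonneg (fun i _ => mul_nonneg (hw i) (h2 (a i) (ha i).1 (ha i).2))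
  have hB : 0 ≤ ∑ i, ∑ j, w i * w j * bgg (max (a i) (a j)) (min (a i) (a j)) := by
    refine Finset.sum_nonneg (fun i _ => Finset.sum_nonneg (fun j _ => ?_))
    refine mul_nonneg (mul_nonneg (hw i) (hw j)) (h1 _ _ ?_ ?_ ?_)
    · exact le_min (ha i).1 (ha j).1
    · exact le_trans (min_le_left _ _) (le_max_left _ _)
    · exact max_le (ha i).2 (ha j).2
  have hC : 0 ≤ 2 * c * (∑ i, w i * b1g (a i)) := mul_nonneg (mul_nonneg (by norm_num) hc) hA
  linarith

end Vale.Agent.Lib.P254.PWJ
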