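import Vale.Agent.Lib.P254.PWJ.Quad.Defs

/-!
# P254, route R-C, Lemma 3: the functional on a finite combination of generators
-/

namespace Vale.Agent.Lib.P254.PWJ

open MeasureTheory Set

/-- the integral of `(1 - y)^2` over the unit interval -/
theorem fi_sq : ∫ y in (0:ℝ)..1, (1 - y) ^ 2 = 1 / 3 := by
  rw [intervalIntegral.integral_comp_sub_left (fun x : ℝ => x ^ 2) 1]
  norm_num [integral_pow]

/-- linearity: a weight times a finite combination of generators -/
theorem fi_lin {k : ℕ} (c : ℝ) (w a : Fin k → ℝ) (φ : ℝ → ℝ) (hφ : Continuous φ)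
    (hcont : ∀ a : ℝ, Continuous (gen a)) :
    ∫ y in (0:ℝ)..1, φ y * comb c w a y
      = c * (∫ y in (0:ℝ)..1, φ y) + ∑ i, w i * ∫ y in (0:ℝ)..1, φ y * gen (a i) y := by
  have h1 : ∀ y, φ y * comb c w a y = c * φ y + ∑ i, w i * (φ y * gen (a i) y) := by
    intro y
    unfold comb
    rw [mul_add, Finset.mul_sum]
    congr 1
    · ring
    · exact Finset.sum_congr rfl (fun i _ => by ring)
  simp_rw [h1]
  have hT : ∀ i, Continuous (fun y => w i * (φ y * gen (a i) y)) :=
    fun i => continuous_const.mul (hφ.mul (hcont (a i)))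
  have hi1 : IntervalIntegrable (fun y => c * φ y) volume 0 1 :=
    (continuous_const.mul hφ).intervalIntegrable _ _
  have hi2 : IntervalIntegrable (fun y => ∑ i, w i * (φ y * gen (a i) y)) volume 0 1 :=
    (continuous_finsetSum _ (fun i _ => hT i)).intervalIntegrable _ _
  rw [intervalIntegral.integral_add hi1 hi2,
    intervalIntegral.integral_const_mul,
    intervalIntegral.integral_finsetSum (fun i _ => (hT i).intervalIntegrable _ _)]
  congr 1
  exact Finset.sum_congr rfl (fun i _ => intervalIntegral.integral_const_mul _ _)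

/-- the integral of a product of two generators, in any order -/
theorem fi_gg (hGG : ∀ a b : ℝ, 0 ≤ b → b ≤ a → a ≤ 1 →
      ∫ y in (0:ℝ)..1, gen a y * gen b y = gg a b)
    (a b : ℝ) (ha : 0 ≤ a ∧ a ≤ 1) (hb : 0 ≤ b ∧ b ≤ 1) :
    ∫ y in (0:ℝ)..1, gen a y * gen b y = gg (max a b) (min a b) := by
  rcases le_total a b with h | h
  · rw [max_eq_right h, min_eq_left h, ← hGG b a ha.1 h hb.2]
    exact intervalIntegral.integral_congr (fun y _ => mul_comm _ _)
  · rw [max_eq_left h, min_eq_right h, hGG a b hb.1 h ha.2]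

/-- the integral of the square of a finite combination of generators -/
theorem fi_sqint {k : ℕ} (c : ℝ) (w a : Fin k → ℝ) (ha : ∀ i, 0 ≤ a i ∧ a i ≤ 1)
    (hcont : ∀ a : ℝ, Continuous (gen a))
    (hI0 : ∀ a : ℝ, 0 ≤ a → a ≤ 1 → ∫ y in (0:ℝ)..1, gen a y = i0 a)
    (hGG : ∀ a b : ℝ, 0 ≤ b → b ≤ a → a ≤ 1 →
      ∫ y in (0:ℝ)..1, gen a y * gen b y = gg a b) :
    ∫ y in (0:ℝ)..1, comb c w a y ^ 2
      = c ^ 2 + 2 * c * ∑ i, w i * i0 (a i)
        + ∑ i, ∑ j, w i * w j * gg (max (a i) (a j)) (min (a i) (a j)) := by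
  have h1 : ∀ y, comb c w a y ^ 2 = (c ^ 2 + (2 * c) * ∑ i, w i * gen (a i) y)
      + ∑ i, ∑ j, (w i * w j) * (gen (a i) y * gen (a j) y) := by
    intro y
    unfold comb
    have h2 : (∑ i, w i * gen (a i) y) * (∑ j, w j * gen (a j) y)
        = ∑ i, ∑ j, (w i * w j) * (gen (a i) y * gen (a j) y) := by
      rw [Finset.sum_mul_sum]
      exact Finset.sum_congr rfl (fun i _ => Finset.sum_congr rfl (fun j _ => by ring))
    rw [← h2]
    ring
  simp_rw [h1]
  have hG : ∀ i, Continuous (fun y => w i * gen (a i) y) :=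
    fun i => continuous_const.mul (hcont (a i))
  have hS : Continuous (fun y => ∑ i, w i * gen (a i) y) :=
    continuous_finsetSum _ (fun i _ => hG i)
  have hP : ∀ i j, Continuous (fun y => (w i * w j) * (gen (a i) y * gen (a j) y)) :=
    fun i j => continuous_const.mul ((hcont (a i)).mul (hcont (a j)))
  have hR : ∀ i, Continuous (fun y => ∑ j, (w i * w j) * (gen (a i) y * gen (a j) y)) :=
    fun i => continuous_finsetSum _ (fun j _ => hP i j)
  have hD : Continuous (fun y => ∑ i, ∑ j, (w i * w j) * (gen (a i) y * gen (a j) y)) :=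
    continuous_finsetSum _ (fun i _ => hR i)
  have hi1 : IntervalIntegrable (fun _ : ℝ => c ^ 2) volume 0 1 :=
    continuous_const.intervalIntegrable _ _
  have hi2 : IntervalIntegrable (fun y => (2 * c) * ∑ i, w i * gen (a i) y) volume 0 1 :=
    (continuous_const.mul hS).intervalIntegrable _ _
  have hi3 : IntervalIntegrable
      (fun y => c ^ 2 + (2 * c) * ∑ i, w i * gen (a i) y) volume 0 1 := hi1.add hi2
  have hi4 : IntervalIntegrable
      (fun y => ∑ i, ∑ j, (w i * w j) * (gen (a i) y * gen (a j) y)) volume 0 1 :=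
    hD.intervalIntegrable _ _
  rw [intervalIntegral.integral_add hi3 hi4, intervalIntegral.integral_add hi1 hi2,
    intervalIntegral.integral_const, intervalIntegral.integral_const_mul,
    intervalIntegral.integral_finsetSum (fun i _ => (hG i).intervalIntegrable _ _),
    intervalIntegral.integral_finsetSum (fun i _ => (hR i).intervalIntegrable _ _)]
  have e1 : ∑ i, ∫ y in (0:ℝ)..1, w i * gen (a i) y = ∑ i, w i * i0 (a i) :=
    Finset.sum_congr rfl (fun i _ => by
      rw [intervalIntegral.integral_const_mul, hI0 _ (ha i).1 (ha i).2])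
  have e2 : ∑ i, ∫ y in (0:ℝ)..1, ∑ j, (w i * w j) * (gen (a i) y * gen (a j) y)
      = ∑ i, ∑ j, w i * w j * gg (max (a i) (a j)) (min (a i) (a j)) :=
    Finset.sum_congr rfl (fun i _ => by
      rw [intervalIntegral.integral_finsetSum (fun j _ => (hP i j).intervalIntegrable _ _)]
      exact Finset.sum_congr rfl (fun j _ => by
        rw [intervalIntegral.integral_const_mul, fi_gg hGG _ _ (ha i) (ha j)]))
  rw [e1, e2]
  simp

theorem QF_comb {k : ℕ} (c : ℝ) (w a : Fin k → ℝ) (ha : ∀ i, 0 ≤ a i ∧ a i ≤ 1)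
    (hcont : ∀ a : ℝ, Continuous (gen a))
    (hI0 : ∀ a : ℝ, 0 ≤ a → a ≤ 1 → ∫ y in (0:ℝ)..1, gen a y = i0 a)
    (hI1 : ∀ a : ℝ, 0 ≤ a → a ≤ 1 → ∫ y in (0:ℝ)..1, y * gen a y = i1 a)
    (hC : ∀ a : ℝ, 0 ≤ a → a ≤ 1 → ∫ y in (0:ℝ)..1, (1 - y) ^ 2 * gen a y = cc a)
    (hGG : ∀ a b : ℝ, 0 ≤ b → b ≤ a → a ≤ 1 →
      ∫ y in (0:ℝ)..1, gen a y * gen b y = gg a b) :
    QF (comb c w a) = qval c w a := by
  have hA : ∫ y in (0:ℝ)..1, comb c w a y = c + ∑ i, w i * i0 (a i) := by
    have h := fi_lin c w a (fun _ => (1:ℝ)) continuous_const hcont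
    simp only [one_mul] at h
    rw [h, intervalIntegral.integral_const]
    simp only [sub_zero, smul_eq_mul, mul_one]
    congr 1
    exact Finset.sum_congr rfl (fun i _ => by rw [hI0 _ (ha i).1 (ha i).2])
  have hB : ∫ y in (0:ℝ)..1, y * comb c w a y = c / 2 + ∑ i, w i * i1 (a i) := by
    have h := fi_lin c w a (fun y => y) continuous_id hcont
    rw [h, integral_id]
    congr 1
    · ring
    · exact Finset.sum_congr rfl (fun i _ => by rw [hI1 _ (ha i).1 (ha i).2])
  have hCc : ∫ y in (0:ℝ)..1, (1 - y) ^ 2 * comb c w a y = c / 3 + ∑ i, w i * cc (a i) := by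
    have h := fi_lin c w a (fun y => (1 - y) ^ 2) (by fun_prop) hcont
    rw [h, fi_sq]
    congr 1
    · ring
    · exact Finset.sum_congr rfl (fun i _ => by rw [hC _ (ha i).1 (ha i).2])
  have hD := fi_sqint c w a ha hcont hI0 hGG
  unfold QF qval
  rw [hA, hB, hCc, hD]

end Vale.Agent.Lib.P254.PWJ
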