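import Vale.Agent.Lib.P254.PWJ.Quad.Defs

/-!
# P254, route R-C, Lemma 3: integrals of one generator
-/

namespace Vale.Agent.Lib.P254.PWJ

open MeasureTheory Set

lemma gen_continuous (a : ℝ) : Continuous (gen a) := by
  unfold gen
  exact continuous_const.min (continuous_const.sub continuous_id)

/-- splitting an integral against a generator at the kink `1 - a` -/
lemma g1_split {a : ℝ} (h0 : 0 ≤ a) (h1 : a ≤ 1) (f : ℝ → ℝ) (hf : Continuous f) :
    ∫ y in (0:ℝ)..1, f y * gen a y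
      = (∫ y in (0:ℝ)..(1 - a), f y * a) + ∫ y in (1 - a)..1, f y * (1 - y) := by
  have hc : Continuous (fun y => f y * gen a y) := hf.mul (gen_continuous a)
  rw [← intervalIntegral.integral_add_adjacent_intervals (a := (0:ℝ)) (b := 1 - a) (c := 1)
    (hc.intervalIntegrable _ _) (hc.intervalIntegrable _ _)]
  congr 1
  · apply intervalIntegral.integral_congr
    intro y hy
    rw [uIcc_of_le (by linarith)] at hy
    have : gen a y = a := by
      unfold gen
      exact min_eq_left (by linarith [hy.2])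
    simp only [this]
  · apply intervalIntegral.integral_congr
    intro y hy
    rw [uIcc_of_le (by linarith)] at hy
    have : gen a y = 1 - y := by
      unfold gen
      exact min_eq_right (by linarith [hy.1])
    simp only [this]

/-- an integral of a continuous derivative from an explicit primitive -/
lemma g1_ftc (F f : ℝ → ℝ) (hf : Continuous f) (hF : ∀ x, HasDerivAt F (f x) x) (u v : ℝ) :
    ∫ y in u..v, f y = F v - F u :=
  intervalIntegral.integral_eq_sub_of_hasDerivAt (fun x _ => hF x) (hf.intervalIntegrable _ _)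

lemma g1_d1 (x : ℝ) : HasDerivAt (fun y : ℝ => y) 1 x := hasDerivAt_id x

lemma g1_d2 (x : ℝ) : HasDerivAt (fun y : ℝ => y ^ 2) (2 * x) x := by
  simpa using hasDerivAt_pow 2 x

lemma g1_d3 (x : ℝ) : HasDerivAt (fun y : ℝ => y ^ 3) (3 * x ^ 2) x := by
  simpa using hasDerivAt_pow 3 x

lemma g1_d4 (x : ℝ) : HasDerivAt (fun y : ℝ => y ^ 4) (4 * x ^ 3) x := by
  simpa using hasDerivAt_pow 4 x

lemma int_gen {a : ℝ} (h0 : 0 ≤ a) (h1 : a ≤ 1) :
    ∫ y in (0:ℝ)..1, gen a y = i0 a := by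
  have hs := g1_split h0 h1 (fun _ => 1) continuous_const
  simp only [one_mul] at hs
  rw [hs]
  have e1 : ∫ y in (0:ℝ)..(1 - a), a = a * (1 - a) - a * 0 :=
    g1_ftc (fun y => a * y) (fun _ => a) continuous_const
      (fun x => by
        have h := (g1_d1 x).const_mul a
        exact h.congr_deriv (by ring)) 0 (1 - a)
  have e2 : ∫ y in (1 - a)..1, (1 - y) = (1 - 1 ^ 2 / 2) - ((1 - a) - (1 - a) ^ 2 / 2) :=
    g1_ftc (fun y => y - y ^ 2 / 2) (fun y => 1 - y) (continuous_const.sub continuous_id)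
      (fun x => by
        have h := (g1_d1 x).sub ((g1_d2 x).div_const 2)
        exact h.congr_deriv (by ring)) (1 - a) 1
  rw [e1, e2]
  unfold i0
  ring

lemma int_y_gen {a : ℝ} (h0 : 0 ≤ a) (h1 : a ≤ 1) :
    ∫ y in (0:ℝ)..1, y * gen a y = i1 a := by
  have hs := g1_split h0 h1 (fun y => y) continuous_id
  rw [hs]
  have e1 : ∫ y in (0:ℝ)..(1 - a), y * a = a * (1 - a) ^ 2 / 2 - a * 0 ^ 2 / 2 :=
    g1_ftc (fun y => a * y ^ 2 / 2) (fun y => y * a) (continuous_id.mul continuous_const)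
      (fun x => by
        have h := ((g1_d2 x).const_mul a).div_const 2
        exact h.congr_deriv (by ring)) 0 (1 - a)
  have e2 : ∫ y in (1 - a)..1, y * (1 - y)
      = (1 ^ 2 / 2 - 1 ^ 3 / 3) - ((1 - a) ^ 2 / 2 - (1 - a) ^ 3 / 3) :=
    g1_ftc (fun y => y ^ 2 / 2 - y ^ 3 / 3) (fun y => y * (1 - y))
      (continuous_id.mul (continuous_const.sub continuous_id))
      (fun x => by
        have h := ((g1_d2 x).div_const 2).sub ((g1_d3 x).div_const 3)
        exact h.congr_deriv (by ring)) (1 - a) 1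
  rw [e1, e2]
  unfold i1
  ring

lemma int_c_gen {a : ℝ} (h0 : 0 ≤ a) (h1 : a ≤ 1) :
    ∫ y in (0:ℝ)..1, (1 - y) ^ 2 * gen a y = cc a := by
  have hcont : Continuous (fun y : ℝ => (1 - y) ^ 2) :=
    (continuous_const.sub continuous_id).pow 2
  have hs := g1_split h0 h1 (fun y => (1 - y) ^ 2) hcont
  rw [hs]
  have e1 : ∫ y in (0:ℝ)..(1 - a), (1 - y) ^ 2 * a
      = a * ((1 - a) - (1 - a) ^ 2 + (1 - a) ^ 3 / 3) - a * (0 - 0 ^ 2 + 0 ^ 3 / 3) :=
    g1_ftc (fun y => a * (y - y ^ 2 + y ^ 3 / 3)) (fun y => (1 - y) ^ 2 * a)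
      (hcont.mul continuous_const)
      (fun x => by
        have h := ((((g1_d1 x).sub (g1_d2 x)).add ((g1_d3 x).div_const 3))).const_mul a
        exact h.congr_deriv (by ring)) 0 (1 - a)
  have e2 : ∫ y in (1 - a)..1, (1 - y) ^ 2 * (1 - y)
      = (1 - 3 * 1 ^ 2 / 2 + 1 ^ 3 - 1 ^ 4 / 4)
        - ((1 - a) - 3 * (1 - a) ^ 2 / 2 + (1 - a) ^ 3 - (1 - a) ^ 4 / 4) :=
    g1_ftc (fun y => y - 3 * y ^ 2 / 2 + y ^ 3 - y ^ 4 / 4) (fun y => (1 - y) ^ 2 * (1 - y))
      (hcont.mul (continuous_const.sub continuous_id))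
      (fun x => by
        have h := ((((g1_d1 x).sub (((g1_d2 x).const_mul 3).div_const 2)).add (g1_d3 x))).sub
          ((g1_d4 x).div_const 4)
        exact h.congr_deriv (by ring)) (1 - a) 1
  rw [e1, e2]
  unfold cc
  ring

end Vale.Agent.Lib.P254.PWJ
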