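import Vale.Agent.Lib.P254.PWJ.Quad.Defs

/-!
# P254, route R-C, Lemma 3: integral of a product of two generators
-/

namespace Vale.Agent.Lib.P254.PWJ

open MeasureTheory Set

/-- `∫ (1 - y) * b` over an interval. -/
lemma int_gen_gen_lin (b p q : ℝ) :
    ∫ y in p..q, (1 - y) * b = b * ((1 - p) ^ 2 - (1 - q) ^ 2) / 2 := by
  have h := intervalIntegral.integral_comp_sub_left (fun x : ℝ => x * b) (a := p) (b := q) 1
  rw [h, intervalIntegral.integral_mul_const, integral_id]
  ring

/-- `∫ (1 - y) * (1 - y)` over an interval. -/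
lemma int_gen_gen_sq (p q : ℝ) :
    ∫ y in p..q, (1 - y) * (1 - y) = ((1 - p) ^ 3 - (1 - q) ^ 3) / 3 := by
  have h := intervalIntegral.integral_comp_sub_left (fun x : ℝ => x ^ 2) (a := p) (b := q) 1
  have e : ∀ y : ℝ, (1 - y) * (1 - y) = (1 - y) ^ 2 := fun y => by ring
  simp only [e]
  rw [h, integral_pow]
  norm_num

lemma int_gen_gen {a b : ℝ} (h0 : 0 ≤ b) (hba : b ≤ a) (h1 : a ≤ 1) :
    ∫ y in (0:ℝ)..1, gen a y * gen b y = gg a b := by
  have hcont : Continuous (fun y : ℝ => gen a y * gen b y) := by
    unfold gen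
    fun_prop
  have hI : ∀ p q : ℝ, IntervalIntegrable (fun y : ℝ => gen a y * gen b y) volume p q :=
    fun p q => hcont.intervalIntegrable p q
  have hsplit : ∫ y in (0:ℝ)..1, gen a y * gen b y
      = (∫ y in (0:ℝ)..(1 - a), gen a y * gen b y)
        + (∫ y in (1 - a)..(1 - b), gen a y * gen b y)
        + ∫ y in (1 - b)..1, gen a y * gen b y := by
    rw [intervalIntegral.integral_add_adjacent_intervals (hI _ _) (hI _ _),
      intervalIntegral.integral_add_adjacent_intervals (hI _ _) (hI _ _)]
  have hp1 : ∫ y in (0:ℝ)..(1 - a), gen a y * gen b y = a * b * (1 - a) := by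
    have hc : ∫ y in (0:ℝ)..(1 - a), gen a y * gen b y = ∫ y in (0:ℝ)..(1 - a), a * b := by
      apply intervalIntegral.integral_congr
      intro y hy
      rw [Set.uIcc_of_le (by linarith)] at hy
      have hy2 := hy.2
      show gen a y * gen b y = a * b
      unfold gen
      rw [min_eq_left (by linarith), min_eq_left (by linarith)]
    rw [hc, intervalIntegral.integral_const, smul_eq_mul]
    ring
  have hp2 : ∫ y in (1 - a)..(1 - b), gen a y * gen b y = b * (a ^ 2 - b ^ 2) / 2 := by
    have hc : ∫ y in (1 - a)..(1 - b), gen a y * gen b y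
        = ∫ y in (1 - a)..(1 - b), (1 - y) * b := by
      apply intervalIntegral.integral_congr
      intro y hy
      rw [Set.uIcc_of_le (by linarith)] at hy
      have hy1 := hy.1
      have hy2 := hy.2
      show gen a y * gen b y = (1 - y) * b
      unfold gen
      rw [min_eq_right (by linarith), min_eq_left (by linarith)]
    rw [hc, int_gen_gen_lin]
    ring
  have hp3 : ∫ y in (1 - b)..1, gen a y * gen b y = b ^ 3 / 3 := by
    have hc : ∫ y in (1 - b)..1, gen a y * gen b y
        = ∫ y in (1 - b)..1, (1 - y) * (1 - y) := by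
      apply intervalIntegral.integral_congr
      intro y hy
      rw [Set.uIcc_of_le (by linarith)] at hy
      have hy1 := hy.1
      show gen a y * gen b y = (1 - y) * (1 - y)
      unfold gen
      rw [min_eq_right (by linarith), min_eq_right (by linarith)]
    rw [hc, int_gen_gen_sq]
    ring
  rw [hsplit, hp1, hp2, hp3]
  unfold gg
  ring

end Vale.Agent.Lib.P254.PWJ
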