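import Vale.Agent.Lib.P254.PWJ.Quad.Defs

/-!
# P254, route R-C, Lemma 3: the functional is continuous under dominated pointwise convergence
-/

namespace Vale.Agent.Lib.P254.PWJ

open MeasureTheory Set Filter Topology

/-- Dominated convergence on the unit interval for continuous functions with a constant bound,
converging pointwise on the open interval. -/
private lemma limit_aux (F : ℕ → ℝ → ℝ) (f : ℝ → ℝ) (C : ℝ)
    (hcont : ∀ n, Continuous (F n))
    (hbd : ∀ n, ∀ y ∈ Icc (0:ℝ) 1, |F n y| ≤ C)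
    (hlim : ∀ y ∈ Ioo (0:ℝ) 1, Tendsto (fun n => F n y) atTop (𝓝 (f y))) :
    Tendsto (fun n => ∫ y in (0:ℝ)..1, F n y) atTop (𝓝 (∫ y in (0:ℝ)..1, f y)) := by
  apply intervalIntegral.tendsto_integral_filter_of_dominated_convergence (fun _ => C)
  · exact Eventually.of_forall fun n => (hcont n).aestronglyMeasurable
  · refine Eventually.of_forall fun n => Eventually.of_forall fun y hy => ?_
    rw [uIoc_of_le zero_le_one] at hy
    rw [Real.norm_eq_abs]
    exact hbd n y ⟨hy.1.le, hy.2⟩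
  · exact intervalIntegrable_const
  · have h1 : ∀ᵐ y ∂(volume : Measure ℝ), y ≠ 1 := by
      have h2 := (Set.countable_singleton (1:ℝ)).ae_notMem (volume : Measure ℝ)
      filter_upwards [h2] with y hy
      simpa using hy
    filter_upwards [h1] with y hy hy'
    rw [uIoc_of_le zero_le_one] at hy'
    exact hlim y ⟨hy'.1, lt_of_le_of_ne hy'.2 hy⟩

theorem QF_tendsto (l : ℝ → ℝ) (L : ℕ → ℝ → ℝ) (M : ℝ) (hLc : ∀ n, Continuous (L n))
    (hbd : ∀ n, ∀ y ∈ Icc (0:ℝ) 1, |L n y| ≤ M)
    (hlim : ∀ y ∈ Ioo (0:ℝ) 1, Tendsto (fun n => L n y) atTop (𝓝 (l y))) :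
    Tendsto (fun n => QF (L n)) atTop (𝓝 (QF l)) := by
  have h1 : Tendsto (fun n => ∫ y in (0:ℝ)..1, L n y) atTop (𝓝 (∫ y in (0:ℝ)..1, l y)) :=
    limit_aux L l M hLc hbd hlim
  have h2 : Tendsto (fun n => ∫ y in (0:ℝ)..1, (1 - y) ^ 2 * L n y) atTop
      (𝓝 (∫ y in (0:ℝ)..1, (1 - y) ^ 2 * l y)) := by
    apply limit_aux (fun n y => (1 - y) ^ 2 * L n y) (fun y => (1 - y) ^ 2 * l y) M
    · intro n
      exact ((continuous_const.sub continuous_id).pow 2).mul (hLc n)
    · intro n y hy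
      have hw : (1 - y) ^ 2 ≤ 1 := by nlinarith [hy.1, hy.2]
      have hL := hbd n y hy
      rw [abs_mul, abs_of_nonneg (sq_nonneg _)]
      nlinarith [abs_nonneg (L n y), sq_nonneg (1 - y)]
    · intro y hy
      exact (hlim y hy).const_mul _
  have h3 : Tendsto (fun n => ∫ y in (0:ℝ)..1, y * L n y) atTop
      (𝓝 (∫ y in (0:ℝ)..1, y * l y)) := by
    apply limit_aux (fun n y => y * L n y) (fun y => y * l y) M
    · intro n
      exact continuous_id.mul (hLc n)
    · intro n y hy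
      have hL := hbd n y hy
      rw [abs_mul, abs_of_nonneg hy.1]
      nlinarith [abs_nonneg (L n y), hy.1, hy.2]
    · intro y hy
      exact (hlim y hy).const_mul _
  have h4 : Tendsto (fun n => ∫ y in (0:ℝ)..1, L n y ^ 2) atTop
      (𝓝 (∫ y in (0:ℝ)..1, l y ^ 2)) := by
    apply limit_aux (fun n y => L n y ^ 2) (fun y => l y ^ 2) (M ^ 2)
    · intro n
      exact (hLc n).pow 2
    · intro n y hy
      have hL := hbd n y hy
      rw [abs_pow]
      exact pow_le_pow_left₀ (abs_nonneg _) hL 2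
    · intro y hy
      exact (hlim y hy).pow 2
  unfold QF
  exact ((((h1.pow 2).const_mul 2).add ((h2.const_mul 3).mul h1)).sub
    ((h2.const_mul 12).mul h3)).sub h4

end Vale.Agent.Lib.P254.PWJ
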