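import Vale.Agent.Lib.P254.PWJ.Quad.Defs

/-!
# P254, route R-C, Lemma 3: the interpolant at the nodes `j/(n+1)`
-/

namespace Vale.Agent.Lib.P254.PWJ

open Set

lemma nd_mem (n : ℕ) (k : Fin (n + 1)) : 0 ≤ nd n k ∧ nd n k ≤ 1 := by
  have hN : (0:ℝ) < (n:ℝ) + 1 := by positivity
  have hk : ((k : ℕ) : ℝ) ≤ (n:ℝ) + 1 := by
    have h1 : ((k : ℕ) : ℝ) ≤ (n : ℝ) := by exact_mod_cast Nat.lt_succ_iff.mp k.2
    linarith
  have h0 : (0:ℝ) ≤ ((k : ℕ) : ℝ) / ((n:ℝ) + 1) := div_nonneg (Nat.cast_nonneg _) hN.le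
  have h1 : ((k : ℕ) : ℝ) / ((n:ℝ) + 1) ≤ 1 := (div_le_one hN).mpr hk
  unfold nd
  constructor
  · linarith
  · linarith

lemma wt_nonneg {l : ℝ → ℝ} (hc : ConcaveOn ℝ (Icc (0:ℝ) 1) l)
    (ha : AntitoneOn l (Icc (0:ℝ) 1)) (n : ℕ) (k : Fin (n + 1)) : 0 ≤ wt l n k := by
  have hN : (0:ℝ) < (n:ℝ) + 1 := by positivity
  have hmem : ∀ x : ℝ, 0 ≤ x → x ≤ (n:ℝ) + 1 → x / ((n:ℝ) + 1) ∈ Icc (0:ℝ) 1 := by
    intro x h0 h1
    exact ⟨div_nonneg h0 hN.le, (div_le_one hN).mpr h1⟩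
  unfold wt
  by_cases hk : (k : ℕ) = 0
  · rw [if_pos hk]
    unfold sl
    simp only [Nat.cast_zero, zero_div, zero_add]
    apply mul_nonneg hN.le
    rw [sub_nonneg]
    have h1 : (1:ℝ) / ((n:ℝ) + 1) ∈ Icc (0:ℝ) 1 :=
      hmem 1 zero_le_one (by linarith [Nat.cast_nonneg (α := ℝ) n])
    exact ha ⟨le_rfl, zero_le_one⟩ h1 h1.1
  · rw [if_neg hk]
    obtain ⟨m, hm⟩ : ∃ m, (k : ℕ) = m + 1 := Nat.exists_eq_succ_of_ne_zero hk
    rw [hm, Nat.add_sub_cancel]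
    have hmn : m + 1 ≤ n := by
      have := k.2
      omega
    have hmr : (m:ℝ) + 1 ≤ (n:ℝ) := by exact_mod_cast hmn
    unfold sl
    push_cast
    have hmid := hc.2 (hmem (m:ℝ) (Nat.cast_nonneg m) (by linarith))
      (hmem ((m:ℝ) + 1 + 1) (by positivity) (by linarith))
      (by norm_num : (0:ℝ) ≤ 1 / 2) (by norm_num : (0:ℝ) ≤ 1 / 2) (by norm_num)
    have hpt : (1 / 2 : ℝ) • ((m:ℝ) / ((n:ℝ) + 1)) + (1 / 2 : ℝ) • (((m:ℝ) + 1 + 1) / ((n:ℝ) + 1))
        = ((m:ℝ) + 1) / ((n:ℝ) + 1) := by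
      simp only [smul_eq_mul]
      field_simp
      ring
    rw [hpt] at hmid
    simp only [smul_eq_mul] at hmid
    have h2 := mul_nonneg hN.le (sub_nonneg.mpr hmid)
    linarith

lemma interp_antitone {l : ℝ → ℝ} (hc : ConcaveOn ℝ (Icc (0:ℝ) 1) l)
    (ha : AntitoneOn l (Icc (0:ℝ) 1)) (n : ℕ) : Antitone (interp l n) := by
  intro x y hxy
  unfold interp comb gen
  apply add_le_add_right
  apply Finset.sum_le_sum
  intro k _
  exact mul_le_mul_of_nonneg_left (min_le_min_left _ (by linarith)) (wt_nonneg hc ha n k)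

/-- telescoping of the second differences -/
lemma nodes_tel (l : ℝ → ℝ) (n m : ℕ) :
    ∑ k ∈ Finset.range (m + 1), (if k = 0 then sl l n 0 else sl l n k - sl l n (k - 1))
      = sl l n m := by
  induction m with
  | zero => simp
  | succ m ih =>
    rw [Finset.sum_range_succ, ih, if_neg (Nat.succ_ne_zero m), Nat.add_sub_cancel]
    ring

/-- the weights up to the index `j` sum to the `j`-th slope -/
lemma nodes_sum (l : ℝ → ℝ) (n j : ℕ) (hj : j ≤ n) :
    ∑ k : Fin (n + 1), (if (k : ℕ) ≤ j then wt l n k else 0) = sl l n j := by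
  have h1 : ∑ k : Fin (n + 1), (if (k : ℕ) ≤ j then wt l n k else 0)
      = ∑ k ∈ Finset.range (n + 1),
        (if k ≤ j then (if k = 0 then sl l n 0 else sl l n k - sl l n (k - 1)) else 0) := by
    rw [← Fin.sum_univ_eq_sum_range
      (fun k => if k ≤ j then (if k = 0 then sl l n 0 else sl l n k - sl l n (k - 1)) else 0)
      (n + 1)]
    rfl
  rw [h1, ← Finset.sum_filter]
  have h2 : (Finset.range (n + 1)).filter (fun k => k ≤ j) = Finset.range (j + 1) := by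
    ext k
    simp only [Finset.mem_filter, Finset.mem_range]
    omega
  rw [h2]
  exact nodes_tel l n j

/-- one step between neighbouring nodes -/
lemma nodes_step (l : ℝ → ℝ) (n j : ℕ) (hj : j ≤ n) :
    interp l n ((j : ℝ) / ((n : ℝ) + 1)) - interp l n (((j : ℝ) + 1) / ((n : ℝ) + 1))
      = l ((j : ℝ) / ((n : ℝ) + 1)) - l (((j : ℝ) + 1) / ((n : ℝ) + 1)) := by
  have hN : (0:ℝ) < (n:ℝ) + 1 := by positivity
  have hdiff : ∀ k : Fin (n + 1),
      wt l n k * min (nd n k) (1 - (j:ℝ) / ((n:ℝ) + 1))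
        - wt l n k * min (nd n k) (1 - ((j:ℝ) + 1) / ((n:ℝ) + 1))
      = (if (k : ℕ) ≤ j then wt l n k else 0) * (1 / ((n:ℝ) + 1)) := by
    intro k
    unfold nd
    by_cases hk : (k : ℕ) ≤ j
    · rw [if_pos hk]
      have hkr : ((k : ℕ) : ℝ) ≤ (j:ℝ) := by exact_mod_cast hk
      have h1 : 1 - (j:ℝ) / ((n:ℝ) + 1) ≤ 1 - ((k : ℕ) : ℝ) / ((n:ℝ) + 1) := by
        have := div_le_div_of_nonneg_right hkr hN.le
        linarith
      have h2 : 1 - ((j:ℝ) + 1) / ((n:ℝ) + 1) ≤ 1 - ((k : ℕ) : ℝ) / ((n:ℝ) + 1) := by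
        have := div_le_div_of_nonneg_right (by linarith : ((k : ℕ) : ℝ) ≤ (j:ℝ) + 1) hN.le
        linarith
      rw [min_eq_right h1, min_eq_right h2]
      field_simp
      ring
    · rw [if_neg hk]
      have hkr : (j:ℝ) + 1 ≤ ((k : ℕ) : ℝ) := by exact_mod_cast Nat.lt_of_not_le hk
      have h1 : 1 - ((k : ℕ) : ℝ) / ((n:ℝ) + 1) ≤ 1 - (j:ℝ) / ((n:ℝ) + 1) := by
        have := div_le_div_of_nonneg_right (by linarith : (j:ℝ) ≤ ((k : ℕ) : ℝ)) hN.le
        linarith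
      have h2 : 1 - ((k : ℕ) : ℝ) / ((n:ℝ) + 1) ≤ 1 - ((j:ℝ) + 1) / ((n:ℝ) + 1) := by
        have := div_le_div_of_nonneg_right hkr hN.le
        linarith
      rw [min_eq_left h1, min_eq_left h2]
      ring
  have hsum : (∑ k : Fin (n + 1), wt l n k * min (nd n k) (1 - (j:ℝ) / ((n:ℝ) + 1)))
      - ∑ k : Fin (n + 1), wt l n k * min (nd n k) (1 - ((j:ℝ) + 1) / ((n:ℝ) + 1))
      = sl l n j * (1 / ((n:ℝ) + 1)) := by
    rw [← Finset.sum_sub_distrib, Finset.sum_congr rfl (fun k _ => hdiff k), ← Finset.sum_mul,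
      nodes_sum l n j hj]
  have hsl : sl l n j * (1 / ((n:ℝ) + 1))
      = l ((j : ℝ) / ((n : ℝ) + 1)) - l (((j : ℝ) + 1) / ((n : ℝ) + 1)) := by
    unfold sl
    field_simp
  unfold interp comb gen
  linarith [hsum, hsl]

lemma interp_node (l : ℝ → ℝ) (n j : ℕ) (hj : j ≤ n + 1) :
    interp l n ((j : ℝ) / ((n : ℝ) + 1)) = l ((j : ℝ) / ((n : ℝ) + 1)) := by
  have hN : (0:ℝ) < (n:ℝ) + 1 := by positivity
  have key : ∀ d j : ℕ, j + d = n + 1 →
      interp l n ((j : ℝ) / ((n : ℝ) + 1)) = l ((j : ℝ) / ((n : ℝ) + 1)) := by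
    intro d
    induction d with
    | zero =>
      intro j hjd
      have hjn : j = n + 1 := by omega
      subst hjn
      have e : (((n + 1 : ℕ) : ℝ)) / ((n : ℝ) + 1) = 1 := by
        push_cast
        exact div_self hN.ne'
      rw [e]
      unfold interp comb gen
      have h : ∀ k : Fin (n + 1), wt l n k * min (nd n k) (1 - 1) = 0 := by
        intro k
        rw [min_eq_right (by linarith [(nd_mem n k).1])]
        ring
      rw [Finset.sum_congr rfl (fun k _ => h k)]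
      simp
    | succ d ih =>
      intro j hjd
      have h1 := ih (j + 1) (by omega)
      push_cast at h1
      have h2 := nodes_step l n j (by omega)
      linarith
  exact key (n + 1 - j) j (by omega)

end Vale.Agent.Lib.P254.PWJ
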