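import Vale.Agent.Lib.P254.PWJ.Quad.Defs

/-!
# P254, route R-C, Lemma 3: positivity of the bilinear form on generators
-/

namespace Vale.Agent.Lib.P254.PWJ

lemma b1g_nonneg {a : ℝ} (_h0 : 0 ≤ a) (_h1 : a ≤ 1) : 0 ≤ b1g a := by
  have e : b1g a = a ^ 2 * ((3 * a - 4) ^ 2 + 2) / 72 := by
    unfold b1g i0 cc i1; ring
  rw [e]; positivity

/-- the cofactor polynomial `H(a,t)` is nonnegative on the unit square -/
lemma hpoly_nonneg {a t : ℝ} (ha0 : 0 ≤ a) (ha1 : a ≤ 1) (ht0 : 0 ≤ t) (ht1 : t ≤ 1) :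
    0 ≤ (4 - 6 * t + 4 * t ^ 2) - 3 / 2 * (1 + a) * (1 + t ^ 3)
      + 9 / 4 * (1 + a + a ^ 2) * t * (1 + t ^ 2) - (1 + a + a ^ 2 + a ^ 3) * t ^ 2 * (1 + t) := by
  have hs : 0 ≤ 1 - a := by linarith
  have hu : 0 ≤ 1 - t := by linarith
  nlinarith [mul_nonneg ha0 hs, mul_nonneg ht0 hu, mul_nonneg (mul_nonneg ha0 hs) ht0,
    mul_nonneg (mul_nonneg ha0 hs) hu, mul_nonneg (mul_nonneg ht0 hu) ha0,
    mul_nonneg (mul_nonneg ht0 hu) hs, mul_nonneg (mul_nonneg ha0 hs) (mul_nonneg ht0 hu),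
    mul_nonneg ha0 ht0, mul_nonneg hs hu, mul_nonneg ha0 hu, mul_nonneg hs ht0,
    sq_nonneg (t - 1 / 2), sq_nonneg (a - 1 / 2), sq_nonneg (a * t), sq_nonneg (a - t)]

/-- the bilinear form on two generators, in the variables `a` and `t = b / a` -/
lemma bgg_scaled (a t : ℝ) :
    12 * bgg a (a * t) = a ^ 3 * t * ((1 / 2 + t * (1 - t) * (3 - t) / 4)
      + (1 - a) * ((4 - 6 * t + 4 * t ^ 2) - 3 / 2 * (1 + a) * (1 + t ^ 3)
        + 9 / 4 * (1 + a + a ^ 2) * t * (1 + t ^ 2)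
        - (1 + a + a ^ 2 + a ^ 3) * t ^ 2 * (1 + t))) := by
  unfold bgg i0 i1 cc gg; ring

lemma bgg_nonneg {a b : ℝ} (h0 : 0 ≤ b) (hba : b ≤ a) (h1 : a ≤ 1) : 0 ≤ bgg a b := by
  rcases eq_or_lt_of_le (h0.trans hba) with ha | ha
  · have hb : b = 0 := le_antisymm (by linarith) h0
    rw [← ha, hb]
    unfold bgg i0 i1 cc gg; norm_num
  · have ht0 : 0 ≤ b / a := div_nonneg h0 ha.le
    have ht1 : b / a ≤ 1 := (div_le_one ha).2 hba
    have hb : b = a * (b / a) := by field_simp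
    have key := bgg_scaled a (b / a)
    rw [← hb] at key
    have hH := hpoly_nonneg ha.le h1 ht0 ht1
    have hG : 0 ≤ (b / a) * (1 - b / a) * (3 - b / a) :=
      mul_nonneg (mul_nonneg ht0 (by linarith)) (by linarith)
    have hR : 0 ≤ a ^ 3 * (b / a) * ((1 / 2 + (b / a) * (1 - b / a) * (3 - b / a) / 4)
        + (1 - a) * ((4 - 6 * (b / a) + 4 * (b / a) ^ 2) - 3 / 2 * (1 + a) * (1 + (b / a) ^ 3)
          + 9 / 4 * (1 + a + a ^ 2) * (b / a) * (1 + (b / a) ^ 2)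
          - (1 + a + a ^ 2 + a ^ 3) * (b / a) ^ 2 * (1 + b / a))) := by
      apply mul_nonneg (mul_nonneg (by positivity) ht0)
      have h1a : 0 ≤ 1 - a := by linarith
      have := mul_nonneg h1a hH
      linarith
    linarith

end Vale.Agent.Lib.P254.PWJ
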