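import Vale.Agent.Lib.P254.PWJ.Quad.Gen1
import Vale.Agent.Lib.P254.PWJ.Quad.Gen2
import Vale.Agent.Lib.P254.PWJ.Quad.Poly
import Vale.Agent.Lib.P254.PWJ.Quad.FinAlg
import Vale.Agent.Lib.P254.PWJ.Quad.FinInt
import Vale.Agent.Lib.P254.PWJ.Quad.Nodes
import Vale.Agent.Lib.P254.PWJ.Quad.Approx
import Vale.Agent.Lib.P254.PWJ.Quad.Limit

/-!
# P254, route R-C, Lemma 3: the quadratic inequality for concave nonincreasing profiles
-/

namespace Vale.Agent.Lib.P254.PWJ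

open MeasureTheory Set Filter Topology

lemma comb_continuous {k : ℕ} (c : ℝ) (w a : Fin k → ℝ) : Continuous (comb c w a) := by
  unfold comb
  exact continuous_const.add
    (continuous_finsetSum _ fun i _ => continuous_const.mul (gen_continuous (a i)))

theorem QF_nonneg (l : ℝ → ℝ) (hc : ConcaveOn ℝ (Icc (0:ℝ) 1) l)
    (ha : AntitoneOn l (Icc (0:ℝ) 1)) (h0 : ∀ y ∈ Icc (0:ℝ) 1, 0 ≤ l y) : 0 ≤ QF l := by
  have hL := approx_of_nodes l hc ha h0 (interp l) (interp_antitone hc ha) (interp_node l)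
  have hT := QF_tendsto l (interp l) (l 0) (fun n => comb_continuous _ _ _) hL.1 hL.2
  refine ge_of_tendsto' hT fun n => ?_
  have h1 : (1:ℝ) ∈ Icc (0:ℝ) 1 := ⟨zero_le_one, le_rfl⟩
  have e : QF (interp l n) = qval (l 1) (wt l n) (nd n) :=
    QF_comb (l 1) (wt l n) (nd n) (nd_mem n) gen_continuous
      (fun a h0 h1 => int_gen h0 h1) (fun a h0 h1 => int_y_gen h0 h1)
      (fun a h0 h1 => int_c_gen h0 h1) (fun a b h0 hba h1 => int_gen_gen h0 hba h1)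
  rw [e]
  exact qval_nonneg (l 1) (h0 1 h1) (wt l n) (nd n) (wt_nonneg hc ha n) (nd_mem n)
    (fun a b h0 hba h1 => bgg_nonneg h0 hba h1) (fun a h0 h1 => b1g_nonneg h0 h1)

/-- **Lemma 3.**  For `l ≥ 0` concave and nonincreasing on the unit interval:
`J0 + 12 C I1 ≤ 2 I0^2 + 3 C I0`. -/
theorem quad_concave (l : ℝ → ℝ) (hc : ConcaveOn ℝ (Icc (0:ℝ) 1) l)
    (ha : AntitoneOn l (Icc (0:ℝ) 1)) (h0 : ∀ y ∈ Icc (0:ℝ) 1, 0 ≤ l y) :
    (∫ y in (0:ℝ)..1, l y ^ 2)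
        + 12 * (∫ y in (0:ℝ)..1, (1 - y) ^ 2 * l y) * (∫ y in (0:ℝ)..1, y * l y)
      ≤ 2 * (∫ y in (0:ℝ)..1, l y) ^ 2
        + 3 * (∫ y in (0:ℝ)..1, (1 - y) ^ 2 * l y) * (∫ y in (0:ℝ)..1, l y) := by
  have h := QF_nonneg l hc ha h0
  unfold QF at h
  linarith

end Vale.Agent.Lib.P254.PWJ
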